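import Mathlib.Analysis.Convex.Cone.Extension
import Mathlib.Analysis.InnerProductSpace.Dual
import Mathlib.Analysis.LocallyConvex.Separation
import Mathlib.MeasureTheory.Function.L2Space
import Mathlib.Analysis.Convex.Integral
import Mathlib.MeasureTheory.Function.ConvergenceInMeasure

/-!
# A Hahn–Banach (Mazur–Orlicz) argument in Hilbert space

`S` a bounded nonempty set in a real Hilbert space `E`; `T` a set of pairs `(θ, D) ∈ ℝ × E` stable
under addition and multiplication by positive numbers, such that for every `(θ, D) ∈ T` and `ε > 0`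
there is `u ∈ S` with `-ε ≤ θ + ⟪u, D⟫`. Then there is one `v` in the closed convex hull of `S` with
`0 ≤ θ + ⟪v, D⟫` for all `(θ, D) ∈ T`.
-/

open Set Filter Topology MeasureTheory
open scoped RealInnerProductSpace ENNReal

set_option linter.all false

noncomputable section

namespace Vale.Agent.P299.H882

section hb

variable {E : Type*} [NormedAddCommGroup E] [InnerProductSpace ℝ E]

/-- the support function of `S` -/
def supp (S : Set E) (x : E) : ℝ := sSup ((fun u => ⟪u, x⟫) '' S)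

variable {S : Set E} {R : ℝ}

lemma supp_bdd (hS : ∀ u ∈ S, ‖u‖ ≤ R) (x : E) : BddAbove ((fun u => ⟪u, x⟫) '' S) := by
  refine ⟨R * ‖x‖, ?_⟩
  rintro _ ⟨u, hu, rfl⟩
  exact (real_inner_le_norm u x).trans (mul_le_mul_of_nonneg_right (hS u hu) (norm_nonneg x))

lemma le_supp (hS : ∀ u ∈ S, ‖u‖ ≤ R) {u : E} (hu : u ∈ S) (x : E) : ⟪u, x⟫ ≤ supp S x :=
  le_csSup (supp_bdd hS x) ⟨u, hu, rfl⟩

lemma supp_le (hne : S.Nonempty) {x : E} {c : ℝ} (h : ∀ u ∈ S, ⟪u, x⟫ ≤ c) : supp S x ≤ c := by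
  refine csSup_le (hne.image _) ?_
  rintro _ ⟨u, hu, rfl⟩
  exact h u hu

lemma supp_le_norm (hne : S.Nonempty) (hS : ∀ u ∈ S, ‖u‖ ≤ R) (x : E) : supp S x ≤ R * ‖x‖ :=
  supp_le hne fun u hu => (real_inner_le_norm u x).trans
    (mul_le_mul_of_nonneg_right (hS u hu) (norm_nonneg x))

lemma supp_add (hne : S.Nonempty) (hS : ∀ u ∈ S, ‖u‖ ≤ R) (x y : E) :
    supp S (x + y) ≤ supp S x + supp S y := by
  refine supp_le hne fun u hu => ?_
  rw [inner_add_right]
  exact add_le_add (le_supp hS hu x) (le_supp hS hu y)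

lemma supp_smul_le (hne : S.Nonempty) (hS : ∀ u ∈ S, ‖u‖ ≤ R) {c : ℝ} (hc : 0 ≤ c) (x : E) :
    supp S (c • x) ≤ c * supp S x := by
  refine supp_le hne fun u hu => ?_
  rw [real_inner_smul_right]
  exact mul_le_mul_of_nonneg_left (le_supp hS hu x) hc

lemma supp_zero (hne : S.Nonempty) : supp S (0 : E) = 0 := by
  unfold supp
  have : (fun u : E => ⟪u, (0 : E)⟫) '' S = {0} := by
    ext t
    simp only [inner_zero_right, mem_image, mem_singleton_iff]
    constructor
    · rintro ⟨u, -, rfl⟩; rfl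
    · rintro rfl
      obtain ⟨u, hu⟩ := hne
      exact ⟨u, hu, rfl⟩
  rw [this, csSup_singleton]

variable [CompleteSpace E]

/-- **Mazur–Orlicz in Hilbert space.** -/
theorem mazur_orlicz (hne : S.Nonempty) (hS : ∀ u ∈ S, ‖u‖ ≤ R) {T : Set (ℝ × E)}
    (hTne : T.Nonempty) (hadd : ∀ a ∈ T, ∀ b ∈ T, a + b ∈ T)
    (hsmul : ∀ c : ℝ, 0 < c → ∀ a ∈ T, c • a ∈ T)
    (h : ∀ a ∈ T, ∀ ε : ℝ, 0 < ε → ∃ u ∈ S, -ε ≤ a.1 + ⟪u, a.2⟫) :
    ∃ v ∈ closure (convexHull ℝ S), ∀ a ∈ T, 0 ≤ a.1 + ⟪v, a.2⟫ := by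
  classical
  have hR : 0 ≤ R := by
    obtain ⟨u, hu⟩ := hne
    exact (norm_nonneg u).trans (hS u hu)
  -- the hypothesis in terms of the support function
  have hT0 : ∀ a ∈ T, 0 ≤ a.1 + supp S a.2 := by
    intro a ha
    by_contra hlt
    rw [not_le] at hlt
    obtain ⟨u, hu, hu'⟩ := h a ha (-(a.1 + supp S a.2) / 2) (by linarith)
    have := le_supp hS hu a.2
    linarith
  -- the sublinear functional
  set Q : E → ℝ := fun x => sInf ((fun a : ℝ × E => supp S (x + a.2) + a.1) '' T) with hQ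
  have hbdd : ∀ x, BddBelow ((fun a : ℝ × E => supp S (x + a.2) + a.1) '' T) := by
    intro x
    refine ⟨-supp S (-x), ?_⟩
    rintro _ ⟨a, ha, rfl⟩
    have h1 := supp_add hne hS (x + a.2) (-x)
    have h2 : x + a.2 + -x = a.2 := by abel
    rw [h2] at h1
    have h3 := hT0 a ha
    simp only
    linarith
  have hQle : ∀ x, ∀ a ∈ T, Q x ≤ supp S (x + a.2) + a.1 := fun x a ha =>
    csInf_le (hbdd x) ⟨a, ha, rfl⟩
  have hleQ : ∀ x c, (∀ a ∈ T, c ≤ supp S (x + a.2) + a.1) → c ≤ Q x := by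
    intro x c hc
    refine le_csInf (hTne.image _) ?_
    rintro _ ⟨a, ha, rfl⟩
    exact hc a ha
  have hQadd : ∀ x y, Q (x + y) ≤ Q x + Q y := by
    intro x y
    rw [← sub_le_iff_le_add]
    refine hleQ x _ fun a ha => ?_
    rw [sub_le_comm]
    refine hleQ y _ fun b hb => ?_
    have h1 := hQle (x + y) (a + b) (hadd a ha b hb)
    have h2 := supp_add hne hS (x + a.2) (y + b.2)
    have h3 : x + y + (a + b).2 = x + a.2 + (y + b.2) := by simp only [Prod.snd_add]; abel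
    rw [h3, Prod.fst_add] at h1
    linarith
  have hQsmul_le : ∀ c : ℝ, 0 < c → ∀ x, Q (c • x) ≤ c * Q x := by
    intro c hc x
    rw [← div_le_iff₀' hc]
    refine hleQ x _ fun a ha => ?_
    rw [div_le_iff₀' hc]
    have h1 := hQle (c • x) (c • a) (hsmul c hc a ha)
    have h3 : c • x + (c • a).2 = c • (x + a.2) := by simp only [Prod.smul_snd, smul_add]
    rw [h3, Prod.smul_fst, smul_eq_mul] at h1
    have h2 := supp_smul_le hne hS hc.le (x + a.2)
    linarith
  have hQsmul : ∀ c : ℝ, 0 < c → ∀ x, Q (c • x) = c * Q x := by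
    intro c hc x
    refine le_antisymm (hQsmul_le c hc x) ?_
    have h1 := hQsmul_le c⁻¹ (inv_pos.2 hc) (c • x)
    rw [smul_smul, inv_mul_cancel₀ hc.ne', one_smul] at h1
    rwa [← div_eq_inv_mul, le_div_iff₀' hc] at h1
  -- Hahn–Banach
  obtain ⟨g, -, hg⟩ := exists_extension_of_le_sublinear (⟨⊥, 0⟩ : E →ₗ.[ℝ] ℝ) Q hQsmul hQadd (by
    rintro ⟨x, hx⟩
    have hx0 : x = 0 := by simpa using hx
    subst hx0
    show (0 : ℝ) ≤ Q 0
    refine hleQ 0 0 fun a ha => ?_
    rw [zero_add]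
    have := hT0 a ha
    linarith)
  -- `Q ≤ supp`
  have hQsupp : ∀ x, Q x ≤ supp S x := by
    intro x
    refine le_of_forall_pos_le_add fun ε hε => ?_
    obtain ⟨a, ha⟩ := hTne
    -- use `c • a` with `c → 0`
    set M : ℝ := |supp S a.2| + |a.1| + 1 with hM
    have hMpos : 0 < M := by positivity
    have hc : 0 < ε / M := by positivity
    have h1 := hQle x ((ε / M) • a) (hsmul _ hc a ha)
    have h2 := supp_add hne hS x (((ε / M) • a).2)
    have h3 : supp S (((ε / M) • a).2) ≤ ε / M * supp S a.2 := by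
      rw [Prod.smul_snd]; exact supp_smul_le hne hS hc.le a.2
    rw [Prod.smul_fst, smul_eq_mul] at h1
    have h4 : ε / M * supp S a.2 + ε / M * a.1 ≤ ε := by
      have : ε / M * supp S a.2 + ε / M * a.1 ≤ ε / M * M := by
        rw [← mul_add]
        refine mul_le_mul_of_nonneg_left ?_ hc.le
        rw [hM]
        have := le_abs_self (supp S a.2)
        have := le_abs_self a.1
        linarith
      rwa [div_mul_cancel₀ _ hMpos.ne'] at this
    linarith
  have hgs : ∀ x, g x ≤ supp S x := fun x => (hg x).trans (hQsupp x)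
  -- `g` is continuous
  have hgb : ∀ x, ‖g x‖ ≤ R * ‖x‖ := by
    intro x
    rw [Real.norm_eq_abs, abs_le]
    constructor
    · have h1 := (hgs (-x)).trans (supp_le_norm hne hS (-x))
      rw [map_neg, norm_neg] at h1
      linarith
    · exact (hgs x).trans (supp_le_norm hne hS x)
  set G : E →L[ℝ] ℝ := g.mkContinuous R hgb with hG
  set v : E := (InnerProductSpace.toDual ℝ E).symm G with hv
  have hvx : ∀ x, ⟪v, x⟫ = g x := by
    intro x
    rw [hv, InnerProductSpace.toDual_symm_apply]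
    rfl
  refine ⟨v, ?_, ?_⟩
  · by_contra hnot
    obtain ⟨f, t, hft1, hft2⟩ := geometric_hahn_banach_closed_point
      ((convex_convexHull ℝ S).closure) isClosed_closure hnot
    set x : E := (InnerProductSpace.toDual ℝ E).symm f with hx
    have hfx : ∀ y, f y = ⟪y, x⟫ := by
      intro y
      rw [real_inner_comm, hx, InnerProductSpace.toDual_symm_apply]
    have h1 : supp S x ≤ t := supp_le hne fun u hu => by
      rw [← hfx]
      exact (hft1 u (subset_closure (subset_convexHull ℝ S hu))).le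
    have h2 := hgs x
    rw [← hvx, ← hfx] at h2
    linarith
  · intro a ha
    have h1 := hg (-a.2)
    have h2 := hQle (-a.2) a ha
    rw [neg_add_cancel, supp_zero hne, zero_add] at h2
    rw [map_neg] at h1
    rw [hvx]
    linarith

end hb

section lp

variable {α : Type*} [MeasurableSpace α] {μ : Measure α}

/-- an `L²` convergent sequence has an a.e. convergent subsequence -/
lemma exists_ae_subseq {u : ℕ → Lp ℝ 2 μ} {v : Lp ℝ 2 μ} (h : Tendsto u atTop (𝓝 v)) :
    ∃ k : ℕ → ℕ, StrictMono k ∧ ∀ᵐ x ∂μ, Tendsto (fun i => u (k i) x) atTop (𝓝 (v x)) :=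
  (tendstoInMeasure_of_tendsto_Lp h).exists_seq_tendsto_ae

lemma isClosed_nonpos : IsClosed {v : Lp ℝ 2 μ | ∀ᵐ x ∂μ, v x ≤ 0} := by
  refine IsSeqClosed.isClosed fun u v hu h => ?_
  obtain ⟨k, -, hk⟩ := exists_ae_subseq h
  have h1 : ∀ᵐ x ∂μ, ∀ i, u (k i) x ≤ 0 := ae_all_iff.2 fun i => hu (k i)
  filter_upwards [hk, h1] with x hx hx'
  exact le_of_tendsto hx (Eventually.of_forall hx')

lemma convex_nonpos : Convex ℝ {v : Lp ℝ 2 μ | ∀ᵐ x ∂μ, v x ≤ 0} := by
  intro u hu v hv a b ha hb hab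
  simp only [mem_setOf_eq] at hu hv ⊢
  filter_upwards [hu, hv, Lp.coeFn_add (a • u) (b • v), Lp.coeFn_smul a u, Lp.coeFn_smul b v]
    with x h1 h2 h3 h4 h5
  rw [h3, Pi.add_apply, h4, h5]
  simp only [Pi.smul_apply, smul_eq_mul]
  nlinarith [mul_nonneg ha (neg_nonneg.2 h1), mul_nonneg hb (neg_nonneg.2 h2)]

lemma isClosed_exp (d : ℝ) (K : ℝ≥0∞) (W : α → ℝ≥0∞) (hW : AEMeasurable W μ) :
    IsClosed {v : Lp ℝ 2 μ | ∫⁻ x, W x * ENNReal.ofReal (Real.exp (-(d * v x))) ∂μ ≤ K} := by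
  refine IsSeqClosed.isClosed fun u v hu h => ?_
  obtain ⟨k, -, hk⟩ := exists_ae_subseq h
  simp only [mem_setOf_eq] at hu ⊢
  have h1 : ∫⁻ x, W x * ENNReal.ofReal (Real.exp (-(d * v x))) ∂μ ≤
      ∫⁻ x, liminf (fun i => W x * ENNReal.ofReal (Real.exp (-(d * u (k i) x)))) atTop ∂μ := by
    refine lintegral_mono_ae ?_
    filter_upwards [hk] with x hx
    have h2 : Tendsto (fun i => ENNReal.ofReal (Real.exp (-(d * u (k i) x)))) atTop
        (𝓝 (ENNReal.ofReal (Real.exp (-(d * v x))))) :=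
      (ENNReal.continuous_ofReal.comp Real.continuous_exp).continuousAt.tendsto.comp
        ((hx.const_mul d).neg)
    rcases eq_or_ne (W x) ⊤ with hW | hW
    · rw [hW, ENNReal.top_mul (by simpa using Real.exp_pos _)]
      refine le_of_eq ?_
      symm
      have : (fun i => (⊤ : ℝ≥0∞) * ENNReal.ofReal (Real.exp (-(d * u (k i) x)))) = fun _ => ⊤ := by
        funext i
        rw [ENNReal.top_mul (by simpa using Real.exp_pos _)]
      rw [this, liminf_const]
    · exact (ENNReal.Tendsto.const_mul h2 (Or.inr hW)).liminf_eq.symm.le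
  refine h1.trans ((lintegral_liminf_le' fun i => ?_).trans ?_)
  · refine hW.mul ?_
    exact (Real.measurable_exp.comp_aemeasurable
      (((Lp.aestronglyMeasurable (u (k i))).aemeasurable.const_mul d).neg)).ennreal_ofReal
  · refine liminf_le_of_frequently_le' ?_
    exact Eventually.frequently (Eventually.of_forall fun i => hu (k i))

lemma convex_exp (d : ℝ) (K : ℝ≥0∞) (W : α → ℝ≥0∞) (hW : AEMeasurable W μ) :
    Convex ℝ {v : Lp ℝ 2 μ | ∫⁻ x, W x * ENNReal.ofReal (Real.exp (-(d * v x))) ∂μ ≤ K} := by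
  intro u hu v hv a b ha hb hab
  simp only [mem_setOf_eq] at hu hv ⊢
  have hm : ∀ f : Lp ℝ 2 μ, AEMeasurable (fun x => W x * ENNReal.ofReal (Real.exp (-(d * f x)))) μ :=
    fun f => hW.mul (Real.measurable_exp.comp_aemeasurable
      (((Lp.aestronglyMeasurable f).aemeasurable.const_mul d).neg)).ennreal_ofReal
  have h1 : ∫⁻ x, W x * ENNReal.ofReal (Real.exp (-(d * (a • u + b • v : Lp ℝ 2 μ) x))) ∂μ ≤
      ∫⁻ x, (ENNReal.ofReal a * (W x * ENNReal.ofReal (Real.exp (-(d * u x)))) +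
        ENNReal.ofReal b * (W x * ENNReal.ofReal (Real.exp (-(d * v x))))) ∂μ := by
    refine lintegral_mono_ae ?_
    filter_upwards [Lp.coeFn_add (a • u) (b • v), Lp.coeFn_smul a u, Lp.coeFn_smul b v]
      with x h3 h4 h5
    have h6 : Real.exp (-(d * (a • u + b • v : Lp ℝ 2 μ) x)) ≤
        a * Real.exp (-(d * u x)) + b * Real.exp (-(d * v x)) := by
      rw [h3, Pi.add_apply, h4, h5]
      simp only [Pi.smul_apply, smul_eq_mul]
      have := convexOn_exp.2 (mem_univ (-(d * u x))) (mem_univ (-(d * v x))) ha hb hab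
      simp only [smul_eq_mul] at this
      refine le_trans (le_of_eq ?_) this
      congr 1
      ring
    calc W x * ENNReal.ofReal (Real.exp (-(d * (a • u + b • v : Lp ℝ 2 μ) x)))
        ≤ W x * ENNReal.ofReal (a * Real.exp (-(d * u x)) + b * Real.exp (-(d * v x))) := by gcongr
      _ = _ := by
        rw [ENNReal.ofReal_add (mul_nonneg ha (Real.exp_pos _).le)
          (mul_nonneg hb (Real.exp_pos _).le), ENNReal.ofReal_mul ha, ENNReal.ofReal_mul hb]
        ring
  refine h1.trans ?_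
  rw [lintegral_add_left' ((hm u).const_mul _), lintegral_const_mul'' _ (hm u),
    lintegral_const_mul'' _ (hm v)]
  calc _ ≤ ENNReal.ofReal a * K + ENNReal.ofReal b * K := by gcongr
    _ = K := by
      rw [← add_mul, ← ENNReal.ofReal_add ha hb, hab, ENNReal.ofReal_one, one_mul]

/-- **(H)**: `v` in the closed convex hull of `S`, with the two closed convex conditions. -/
theorem exists_limit_weight {S : Set (Lp ℝ 2 μ)} {R : ℝ} (hne : S.Nonempty)
    (hS : ∀ u ∈ S, ‖u‖ ≤ R) (hS0 : ∀ u ∈ S, ∀ᵐ x ∂μ, u x ≤ 0) {d : ℝ} {K : ℝ≥0∞}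
    {W : α → ℝ≥0∞} (hW : AEMeasurable W μ)
    (hSK : ∀ u ∈ S, ∫⁻ x, W x * ENNReal.ofReal (Real.exp (-(d * u x))) ∂μ ≤ K)
    {T : Set (ℝ × Lp ℝ 2 μ)} (hTne : T.Nonempty) (hadd : ∀ a ∈ T, ∀ b ∈ T, a + b ∈ T)
    (hsmul : ∀ c : ℝ, 0 < c → ∀ a ∈ T, c • a ∈ T)
    (h : ∀ a ∈ T, ∀ ε : ℝ, 0 < ε → ∃ u ∈ S, -ε ≤ a.1 + ⟪u, a.2⟫) :
    ∃ v : Lp ℝ 2 μ, (∀ᵐ x ∂μ, v x ≤ 0) ∧ ‖v‖ ≤ R ∧
      ∫⁻ x, W x * ENNReal.ofReal (Real.exp (-(d * v x))) ∂μ ≤ K ∧
      ∀ a ∈ T, 0 ≤ a.1 + ⟪v, a.2⟫ := by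
  obtain ⟨v, hv, hvT⟩ := mazur_orlicz hne hS hTne hadd hsmul h
  refine ⟨v, ?_, ?_, ?_, hvT⟩
  · exact closure_minimal (convexHull_min hS0 convex_nonpos) isClosed_nonpos hv
  · have h1 : S ⊆ Metric.closedBall 0 R := fun u hu => by
      rw [mem_closedBall_zero_iff]; exact hS u hu
    have := closure_minimal (convexHull_min h1 (convex_closedBall 0 R)) Metric.isClosed_closedBall hv
    rwa [mem_closedBall_zero_iff] at this
  · exact closure_minimal (convexHull_min hSK (convex_exp d K W hW)) (isClosed_exp d K W hW) hv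

end lp

end Vale.Agent.P299.H882
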